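import Mathlib

/-!
# Exponential integrals over the positive orthant as iterated one-dimensional integrals

Helper library (seat helper19) for statement S0423.  For a function `F` of `N` real variables we
reduce the integral of `F x * exp (-∑ x i)` over the positive orthant
`Set.pi Set.univ (fun _ => Set.Ioi 0)` to iterated one-dimensional integrals; for a function of a
linear form `y + ∑ a i * x i` the result is the iterate `Kiter` of the one-dimensional operators
`K b f y = ∫ s in Ioi 0, f (y + b * s) * exp (-s)`.
-/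

namespace Crest.Agent.Helper19

open MeasureTheory Set

/-- The restriction of Lebesgue measure on `ℝ` to the positive half-line. -/
noncomputable abbrev halfLine : Measure ℝ := (volume : Measure ℝ).restrict (Set.Ioi 0)

/-- Lebesgue measure restricted to the positive orthant is the product of the half-line
measures. -/
theorem restrict_orthant (N : ℕ) :
    (volume : Measure (Fin N → ℝ)).restrict (Set.pi Set.univ (fun _ : Fin N => Set.Ioi (0 : ℝ))) =
      Measure.pi (fun _ : Fin N => halfLine) := by
  rw [volume_pi]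
  exact Measure.restrict_pi_pi (fun _ : Fin N => (volume : Measure ℝ)) (fun _ => Set.Ioi (0 : ℝ))

/-- Fubini for a product measure on `Fin (N+1) → ℝ`: split off the coordinate `0`. -/
theorem integral_pi_succ {N : ℕ} (μ : Measure ℝ) [SigmaFinite μ] (F : (Fin (N + 1) → ℝ) → ℝ)
    (hF : Integrable F (Measure.pi (fun _ : Fin (N + 1) => μ))) :
    ∫ x, F x ∂(Measure.pi (fun _ : Fin (N + 1) => μ)) =
      ∫ s, (∫ x', F (Fin.cons s x') ∂(Measure.pi (fun _ : Fin N => μ))) ∂μ := by
  have hmp := (measurePreserving_piFinSuccAbove (fun _ : Fin (N + 1) => μ) 0).symm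
  rw [← hmp.integral_comp']
  rw [integral_prod]
  · simp [MeasurableEquiv.piFinSuccAbove_symm_apply, Fin.insertNthEquiv]
  · exact (hmp.integrable_comp_emb (MeasurableEquiv.measurableEmbedding _)).mpr hF

/-- The integral over a product indexed by `Fin 0` is the value at the unique point. -/
theorem integral_pi_zero (μ : Measure ℝ) (F : (Fin 0 → ℝ) → ℝ) :
    ∫ x, F x ∂(Measure.pi (fun _ : Fin 0 => μ)) = F (fun i => i.elim0) := by
  rw [Measure.pi_of_empty (fun _ : Fin 0 => μ) (fun i => i.elim0)]
  simp

/-- The exponential weight `exp (-∑ x i)` is integrable on the positive orthant. -/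
theorem integrable_exp_neg_sum (N : ℕ) :
    Integrable (fun x : Fin N → ℝ => Real.exp (-∑ i, x i))
      (Measure.pi (fun _ : Fin N => halfLine)) := by
  have h1 : Integrable (fun s : ℝ => Real.exp (-s)) halfLine := integrableOn_exp_neg_Ioi (0 : ℝ)
  have h2 := Integrable.fintype_prod (ι := Fin N) (f := fun _ (s : ℝ) => Real.exp (-s))
    (μ := fun _ => halfLine) (fun _ => h1)
  refine h2.congr (Filter.Eventually.of_forall fun x => ?_)
  simp only
  rw [← Real.exp_sum, Finset.sum_neg_distrib]

/-- A bounded measurable function times the exponential weight is integrable on the positive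
orthant. -/
theorem integrable_mul_exp_neg_sum (N : ℕ) (F : (Fin N → ℝ) → ℝ) (hF : Measurable F) (M : ℝ)
    (hM : ∀ x, |F x| ≤ M) :
    Integrable (fun x : Fin N → ℝ => F x * Real.exp (-∑ i, x i))
      (Measure.pi (fun _ : Fin N => halfLine)) := by
  refine (integrable_exp_neg_sum N).bdd_mul (c := M) hF.aestronglyMeasurable ?_
  exact Filter.Eventually.of_forall fun x => by simpa [Real.norm_eq_abs] using hM x

/-- Splitting off the first coordinate in an exponentially weighted integral over the positive
orthant (product-measure form). -/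
theorem integral_mul_exp_succ {N : ℕ} (F : (Fin (N + 1) → ℝ) → ℝ) (hF : Measurable F) (M : ℝ)
    (hM : ∀ x, |F x| ≤ M) :
    ∫ x, F x * Real.exp (-∑ i, x i) ∂(Measure.pi (fun _ : Fin (N + 1) => halfLine)) =
      ∫ s, (∫ x', F (Fin.cons s x') * Real.exp (-∑ i, x' i)
          ∂(Measure.pi (fun _ : Fin N => halfLine))) * Real.exp (-s) ∂halfLine := by
  rw [integral_pi_succ halfLine _ (integrable_mul_exp_neg_sum (N + 1) F hF M hM)]
  refine integral_congr_ae (Filter.Eventually.of_forall fun s => ?_)
  simp only
  rw [← integral_mul_const]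
  refine integral_congr_ae (Filter.Eventually.of_forall fun x' => ?_)
  simp only [Fin.sum_univ_succ, Fin.cons_zero, Fin.cons_succ]
  rw [neg_add, Real.exp_add]
  ring

/-- The one-dimensional exponential averaging operator
`K b f y = ∫ s in Ioi 0, f (y + b * s) * exp (-s)`, i.e. `E f (y + b X)` for a mean-one
exponential variable `X`. -/
noncomputable def K (b : ℝ) (f : ℝ → ℝ) (y : ℝ) : ℝ :=
  ∫ s in Set.Ioi (0 : ℝ), f (y + b * s) * Real.exp (-s)

/-- Iterate of the operators `K (a i)`: `Kiter N a f = K (a 0) (K (a 1) (… (K (a (N-1)) f)))`. -/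
noncomputable def Kiter : (N : ℕ) → (Fin N → ℝ) → (ℝ → ℝ) → ℝ → ℝ
  | 0, _, f => f
  | N + 1, a, f => K (a 0) (Kiter N (fun i => a i.succ) f)

@[simp] theorem Kiter_zero (a : Fin 0 → ℝ) (f : ℝ → ℝ) : Kiter 0 a f = f := rfl

theorem Kiter_succ (N : ℕ) (a : Fin (N + 1) → ℝ) (f : ℝ → ℝ) :
    Kiter (N + 1) a f = K (a 0) (Kiter N (fun i => a i.succ) f) := rfl

theorem K_abs_le (b : ℝ) (f : ℝ → ℝ) (M : ℝ) (hM : ∀ y, |f y| ≤ M) (y : ℝ) :
    |K b f y| ≤ M := by
  have hM0 : 0 ≤ M := le_trans (abs_nonneg _) (hM 0)
  unfold K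
  calc |∫ s in Set.Ioi (0 : ℝ), f (y + b * s) * Real.exp (-s)|
      ≤ ∫ s in Set.Ioi (0 : ℝ), |f (y + b * s) * Real.exp (-s)| := by
        simpa [Real.norm_eq_abs] using
          norm_integral_le_integral_norm (μ := halfLine) (fun s => f (y + b * s) * Real.exp (-s))
    _ ≤ ∫ s in Set.Ioi (0 : ℝ), M * Real.exp (-s) := by
        refine integral_mono_of_nonneg (Filter.Eventually.of_forall fun s => abs_nonneg _)
          ((integrableOn_exp_neg_Ioi (0 : ℝ)).const_mul M) (Filter.Eventually.of_forall fun s => ?_)
        simp only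
        rw [abs_mul, abs_of_pos (Real.exp_pos _)]
        exact mul_le_mul_of_nonneg_right (hM _) (Real.exp_pos _).le
    _ = M := by
        rw [integral_const_mul, integral_exp_neg_Ioi_zero, mul_one]

theorem K_measurable (b : ℝ) (f : ℝ → ℝ) (hf : Measurable f) : Measurable (K b f) := by
  unfold K
  have h : Measurable (fun p : ℝ × ℝ => f (p.1 + b * p.2) * Real.exp (-p.2)) := by
    apply Measurable.mul
    · exact hf.comp (by fun_prop)
    · fun_prop
  exact (h.stronglyMeasurable.integral_prod_right' (ν := halfLine)).measurable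

theorem Kiter_measurable (N : ℕ) (a : Fin N → ℝ) (f : ℝ → ℝ) (hf : Measurable f) :
    Measurable (Kiter N a f) := by
  induction N with
  | zero => exact hf
  | succ N ih => exact K_measurable _ _ (ih _)

theorem Kiter_abs_le (N : ℕ) (a : Fin N → ℝ) (f : ℝ → ℝ) (M : ℝ) (hM : ∀ y, |f y| ≤ M) (y : ℝ) :
    |Kiter N a f y| ≤ M := by
  induction N generalizing y with
  | zero => exact hM y
  | succ N ih => exact K_abs_le _ _ M (fun y => ih _ y) y

/-- **Orthant reduction.** For a bounded measurable `f`, the exponentially weighted integral of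
`f (y + ∑ a i * x i)` over the positive orthant is the iterated one-dimensional average
`Kiter N a f y`. -/
theorem orthant_integral_eq_Kiter (N : ℕ) (a : Fin N → ℝ) (f : ℝ → ℝ) (hf : Measurable f) (M : ℝ)
    (hM : ∀ y, |f y| ≤ M) (y : ℝ) :
    ∫ x in Set.pi Set.univ (fun _ : Fin N => Set.Ioi (0 : ℝ)),
        f (y + ∑ i, a i * x i) * Real.exp (-∑ i, x i) = Kiter N a f y := by
  rw [restrict_orthant]
  induction N generalizing y with
  | zero =>
    rw [integral_pi_zero]
    simp
  | succ N ih =>
    have hmeas : Measurable (fun x : Fin (N + 1) → ℝ => f (y + ∑ i, a i * x i)) :=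
      hf.comp (by fun_prop)
    rw [integral_mul_exp_succ _ hmeas M (fun x => hM _), Kiter_succ]
    unfold K
    refine integral_congr_ae (Filter.Eventually.of_forall fun s => ?_)
    simp only
    congr 1
    rw [← ih (fun i => a i.succ) (y + a 0 * s)]
    refine integral_congr_ae (Filter.Eventually.of_forall fun x' => ?_)
    simp only [Fin.sum_univ_succ, Fin.cons_zero, Fin.cons_succ]
    rw [add_assoc]

end Crest.Agent.Helper19
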