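import Mathlib
import Crest.Prelude.Def_TruncExpWeight
import Crest.Agent.Helper19.Orthant

/-!
# Exchange lemma for S0423: from the template integral to the survival-function form

Helper library (seat helper19) for statement S0423.  With `w r = r * exp (-r)` (the density of a
`Γ(2)` variable), `truncExpWeight y = 1 - ∫ r in Ioi 0, w r * 1_{(0,∞)} (y - r)`, and the
exponential averaging operators `K b` commute with this convolution.  Hence

`Kiter N a truncExpWeight y = 1 - ∫ r in Ioi 0, w r * Kiter N a 1_{(0,∞)} (y - r)`,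

which turns the first half of S0423 into a lower bound for `∫ w S` where
`S v = Kiter N a 1_{(0,∞)} (4/3 - v)`.
-/

namespace Crest.Agent.Helper19

open MeasureTheory Set Crest.AlgGeometry

/-! ### The weight `w r = r * exp (-r)` -/

/-- An antiderivative of `v ↦ v * exp (-v)`. -/
theorem hasDerivAt_w_antideriv (v : ℝ) :
    HasDerivAt (fun v : ℝ => -((1 + v) * Real.exp (-v))) (v * Real.exp (-v)) v := by
  have h1 : HasDerivAt (fun v : ℝ => Real.exp (-v)) (-Real.exp (-v)) v := by
    simpa using (hasDerivAt_neg v).exp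
  have h2 : HasDerivAt (fun v : ℝ => 1 + v) 1 v := by
    simpa using (hasDerivAt_id v).const_add 1
  have h3 := (h2.mul h1).neg
  refine h3.congr_deriv ?_
  ring

theorem integrableOn_w : IntegrableOn (fun r : ℝ => r * Real.exp (-r)) (Ioi 0) := by
  have h := Real.GammaIntegral_convergent (s := 2) (by norm_num)
  refine h.congr_fun (fun x hx => ?_) measurableSet_Ioi
  have : (2 : ℝ) - 1 = 1 := by norm_num
  simp only [this, Real.rpow_one]
  ring

theorem integrable_w : Integrable (fun r : ℝ => r * Real.exp (-r)) halfLine := integrableOn_w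

theorem integral_w : ∫ r in Ioi (0 : ℝ), r * Real.exp (-r) = 1 := by
  have h := Real.Gamma_eq_integral (s := 2) (by norm_num)
  rw [Real.Gamma_two] at h
  rw [h]
  refine setIntegral_congr_fun measurableSet_Ioi (fun x hx => ?_)
  have : (2 : ℝ) - 1 = 1 := by norm_num
  simp only [this, Real.rpow_one]
  ring

theorem w_nonneg_ae : ∀ᵐ r ∂halfLine, 0 ≤ r * Real.exp (-r) := by
  refine (ae_restrict_iff' measurableSet_Ioi).mpr (Filter.Eventually.of_forall fun r hr => ?_)
  exact mul_nonneg (le_of_lt hr) (Real.exp_pos _).le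

/-! ### The truncated exponential weight -/

theorem measurable_truncExpWeight : Measurable truncExpWeight := by
  unfold truncExpWeight
  exact Measurable.ite measurableSet_Iic measurable_const (by fun_prop)

theorem truncExpWeight_nonneg (y : ℝ) : 0 ≤ truncExpWeight y := by
  unfold truncExpWeight
  split_ifs with h
  · exact zero_le_one
  · have hy : 0 < y := not_le.mp h
    have := Real.exp_pos (-y)
    positivity

theorem truncExpWeight_le_one (y : ℝ) : truncExpWeight y ≤ 1 := by
  unfold truncExpWeight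
  split_ifs with h
  · exact le_rfl
  · have h1 : 1 + y ≤ Real.exp y := by linarith [Real.add_one_le_exp y]
    have h2 : Real.exp y * Real.exp (-y) = 1 := by rw [← Real.exp_add]; simp
    have h3 := Real.exp_pos (-y)
    nlinarith

theorem abs_truncExpWeight_le (y : ℝ) : |truncExpWeight y| ≤ 1 := by
  rw [abs_of_nonneg (truncExpWeight_nonneg y)]
  exact truncExpWeight_le_one y

/-- The Heaviside function `1_{(0,∞)}` (as an indicator). -/
noncomputable abbrev Hv : ℝ → ℝ := Set.indicator (Set.Ioi (0 : ℝ)) (1 : ℝ → ℝ)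

theorem measurable_Hv : Measurable Hv := measurable_one.indicator measurableSet_Ioi

theorem abs_Hv_le (y : ℝ) : |Hv y| ≤ 1 := by
  unfold Hv
  by_cases h : y ∈ Set.Ioi (0 : ℝ)
  · simp [Set.indicator_of_mem h]
  · simp [Set.indicator_of_notMem h]

/-- Convolution with the weight `w`: `wconv φ y = ∫ r in Ioi 0, r * exp (-r) * φ (y - r)`,
i.e. `E φ (y - Γ₂)`. -/
noncomputable def wconv (φ : ℝ → ℝ) (y : ℝ) : ℝ :=
  ∫ r in Set.Ioi (0 : ℝ), r * Real.exp (-r) * φ (y - r)

/-- `truncExpWeight y = P (Γ₂ > y) = 1 - P (y - Γ₂ > 0)`. -/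
theorem truncExpWeight_eq (y : ℝ) : truncExpWeight y = 1 - wconv Hv y := by
  unfold wconv
  have h1 : ∀ r : ℝ, r * Real.exp (-r) * Hv (y - r) =
      Set.indicator (Set.Iio y) (fun r : ℝ => r * Real.exp (-r)) r := by
    intro r
    by_cases h : r < y
    · have h' : y - r ∈ Set.Ioi (0 : ℝ) := by simpa using h
      simp [Hv, Set.indicator_of_mem h', Set.indicator_of_mem (show r ∈ Set.Iio y from h)]
    · have h' : y - r ∉ Set.Ioi (0 : ℝ) := by simpa using h
      simp [Hv, Set.indicator_of_notMem h', Set.indicator_of_notMem (show r ∉ Set.Iio y from h)]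
  simp_rw [h1]
  rw [integral_indicator measurableSet_Iio, Measure.restrict_restrict measurableSet_Iio]
  by_cases hy : y ≤ 0
  · have hempty : Set.Iio y ∩ Set.Ioi (0 : ℝ) = ∅ := by
      ext r
      simp only [Set.mem_inter_iff, Set.mem_Iio, Set.mem_Ioi, Set.mem_empty_iff_false, iff_false,
        not_and, not_lt]
      intro h
      linarith
    rw [hempty]
    simp [truncExpWeight, hy]
  · have hy := not_le.mp hy
    have hIoo : Set.Iio y ∩ Set.Ioi (0 : ℝ) = Set.Ioo 0 y := by
      ext r
      simp [and_comm]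
    rw [hIoo, ← integral_Ioc_eq_integral_Ioo, ← intervalIntegral.integral_of_le hy.le]
    have hcont : Continuous (fun r : ℝ => r * Real.exp (-r)) := by fun_prop
    rw [intervalIntegral.integral_eq_sub_of_hasDerivAt (fun x _ => hasDerivAt_w_antideriv x)
      (hcont.intervalIntegrable _ _)]
    simp [truncExpWeight, not_le.mpr hy]

theorem wconv_measurable (φ : ℝ → ℝ) (hφ : Measurable φ) : Measurable (wconv φ) := by
  unfold wconv
  have h : Measurable (fun p : ℝ × ℝ => p.2 * Real.exp (-p.2) * φ (p.1 - p.2)) := by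
    apply Measurable.mul
    · fun_prop
    · exact hφ.comp (by fun_prop)
  exact (h.stronglyMeasurable.integral_prod_right' (ν := halfLine)).measurable

theorem integrable_w_mul (φ : ℝ → ℝ) (hφ : Measurable φ) (M : ℝ) (hM : ∀ y, |φ y| ≤ M) (y : ℝ) :
    Integrable (fun r : ℝ => r * Real.exp (-r) * φ (y - r)) halfLine := by
  have hm : Measurable (fun r : ℝ => φ (y - r)) := hφ.comp (by fun_prop)
  have h := integrable_w.bdd_mul (c := M) hm.aestronglyMeasurable
    (Filter.Eventually.of_forall fun r => by simpa [Real.norm_eq_abs] using hM (y - r))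
  refine h.congr (Filter.Eventually.of_forall fun r => ?_)
  simp only
  ring

theorem wconv_abs_le (φ : ℝ → ℝ) (M : ℝ) (hM : ∀ y, |φ y| ≤ M) (y : ℝ) :
    |wconv φ y| ≤ M := by
  unfold wconv
  calc |∫ r in Set.Ioi (0 : ℝ), r * Real.exp (-r) * φ (y - r)|
      ≤ ∫ r in Set.Ioi (0 : ℝ), |r * Real.exp (-r) * φ (y - r)| := by
        simpa [Real.norm_eq_abs] using
          norm_integral_le_integral_norm (μ := halfLine) (fun r => r * Real.exp (-r) * φ (y - r))
    _ ≤ ∫ r in Set.Ioi (0 : ℝ), r * Real.exp (-r) * M := by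
        refine integral_mono_of_nonneg (Filter.Eventually.of_forall fun s => abs_nonneg _)
          (integrable_w.mul_const M) ?_
        refine (ae_restrict_iff' measurableSet_Ioi).mpr (Filter.Eventually.of_forall fun r hr => ?_)
        have hw : 0 ≤ r * Real.exp (-r) := mul_nonneg (le_of_lt hr) (Real.exp_pos _).le
        simp only
        rw [abs_mul, abs_of_nonneg hw]
        exact mul_le_mul_of_nonneg_left (hM _) hw
    _ = M := by
        rw [integral_mul_const, integral_w, one_mul]

/-! ### `K b` commutes with the convolution -/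

theorem K_wconv (b : ℝ) (φ : ℝ → ℝ) (hφ : Measurable φ) (M : ℝ) (hM : ∀ y, |φ y| ≤ M) :
    K b (wconv φ) = wconv (K b φ) := by
  funext y
  unfold K wconv
  have hint : Integrable (Function.uncurry fun (s r : ℝ) =>
      r * Real.exp (-r) * φ (y + b * s - r) * Real.exp (-s)) (halfLine.prod halfLine) := by
    have hg : Integrable (fun p : ℝ × ℝ => Real.exp (-p.1) * (p.2 * Real.exp (-p.2)))
        (halfLine.prod halfLine) :=
      Integrable.mul_prod (μ := halfLine) (ν := halfLine) (f := fun s : ℝ => Real.exp (-s))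
        (g := fun r : ℝ => r * Real.exp (-r)) (integrableOn_exp_neg_Ioi (0 : ℝ)) integrable_w
    have hmeas : Measurable (fun p : ℝ × ℝ => φ (y + b * p.1 - p.2)) := hφ.comp (by fun_prop)
    have h := hg.bdd_mul (c := M) hmeas.aestronglyMeasurable
      (Filter.Eventually.of_forall fun p => by simpa [Real.norm_eq_abs] using hM _)
    refine h.congr (Filter.Eventually.of_forall fun p => ?_)
    simp only [Function.uncurry]
    ring
  calc ∫ s in Set.Ioi (0 : ℝ), (∫ r in Set.Ioi (0 : ℝ), r * Real.exp (-r) * φ (y + b * s - r)) *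
          Real.exp (-s)
      = ∫ s in Set.Ioi (0 : ℝ), ∫ r in Set.Ioi (0 : ℝ),
          r * Real.exp (-r) * φ (y + b * s - r) * Real.exp (-s) := by
        refine integral_congr_ae (Filter.Eventually.of_forall fun s => ?_)
        simp only
        rw [integral_mul_const]
    _ = ∫ r in Set.Ioi (0 : ℝ), ∫ s in Set.Ioi (0 : ℝ),
          r * Real.exp (-r) * φ (y + b * s - r) * Real.exp (-s) :=
        integral_integral_swap hint
    _ = ∫ r in Set.Ioi (0 : ℝ), r * Real.exp (-r) *
          ∫ s in Set.Ioi (0 : ℝ), φ (y - r + b * s) * Real.exp (-s) := by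
        refine integral_congr_ae (Filter.Eventually.of_forall fun r => ?_)
        simp only
        rw [← integral_const_mul]
        refine integral_congr_ae (Filter.Eventually.of_forall fun s => ?_)
        simp only
        have : y + b * s - r = y - r + b * s := by ring
        rw [this]
        ring

theorem K_one_sub (b : ℝ) (c : ℝ → ℝ) (hc : Measurable c) (M : ℝ) (hM : ∀ y, |c y| ≤ M) :
    K b (fun y => 1 - c y) = fun y => 1 - K b c y := by
  funext y
  unfold K
  have h1 : Integrable (fun s : ℝ => Real.exp (-s)) halfLine := integrableOn_exp_neg_Ioi (0 : ℝ)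
  have h2 : Integrable (fun s : ℝ => c (y + b * s) * Real.exp (-s)) halfLine := by
    refine h1.bdd_mul (c := M) (hc.comp (by fun_prop)).aestronglyMeasurable ?_
    exact Filter.Eventually.of_forall fun s => by simpa [Real.norm_eq_abs] using hM _
  calc ∫ s in Set.Ioi (0 : ℝ), (1 - c (y + b * s)) * Real.exp (-s)
      = ∫ s in Set.Ioi (0 : ℝ), (Real.exp (-s) - c (y + b * s) * Real.exp (-s)) := by
        refine integral_congr_ae (Filter.Eventually.of_forall fun s => ?_)
        simp only
        ring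
    _ = 1 - ∫ s in Set.Ioi (0 : ℝ), c (y + b * s) * Real.exp (-s) := by
        rw [integral_sub h1 h2, integral_exp_neg_Ioi_zero]

theorem K_zero (f : ℝ → ℝ) : K 0 f = f := by
  funext y
  unfold K
  simp only [zero_mul, add_zero]
  rw [integral_const_mul, integral_exp_neg_Ioi_zero, mul_one]

theorem Kiter_of_eq_zero (N : ℕ) (a : Fin N → ℝ) (ha : ∀ i, a i = 0) (f : ℝ → ℝ) :
    Kiter N a f = f := by
  induction N with
  | zero => rfl
  | succ N ih =>
    rw [Kiter_succ, ha 0, K_zero]
    exact ih _ (fun i => ha _)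

/-! ### The exchange lemma -/

/-- **Exchange lemma.** `E g (y + ∑ a i X i) = 1 - ∫ r in Ioi 0, r e^{-r} F (y - r) dr`, where
`F = Kiter N a 1_{(0,∞)}`, i.e. `F y = P (y + ∑ a i X i > 0)`. -/
theorem Kiter_truncExpWeight (N : ℕ) (a : Fin N → ℝ) :
    Kiter N a truncExpWeight = fun y => 1 - wconv (Kiter N a Hv) y := by
  induction N with
  | zero =>
    funext y
    simp only [Kiter_zero]
    exact truncExpWeight_eq y
  | succ N ih =>
    rw [Kiter_succ, ih,
      K_one_sub _ _ (wconv_measurable _ (Kiter_measurable _ _ _ measurable_Hv)) 1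
        (wconv_abs_le _ 1 (Kiter_abs_le _ _ _ 1 abs_Hv_le)),
      K_wconv _ _ (Kiter_measurable _ _ _ measurable_Hv) 1 (Kiter_abs_le _ _ _ 1 abs_Hv_le)]
    rfl

/-- Pointwise, fully unfolded form of the exchange lemma. -/
theorem Kiter_truncExpWeight_apply (N : ℕ) (a : Fin N → ℝ) (y : ℝ) :
    Kiter N a truncExpWeight y =
      1 - ∫ r in Set.Ioi (0 : ℝ), r * Real.exp (-r) *
        Kiter N a (Set.indicator (Set.Ioi (0 : ℝ)) (1 : ℝ → ℝ)) (y - r) := by
  rw [Kiter_truncExpWeight]
  rfl

/-- The template integral of S0423 in survival-function form. -/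
theorem template_integral_eq (N : ℕ) (a : Fin N → ℝ) (y : ℝ) :
    ∫ x in Set.pi Set.univ (fun _ : Fin N => Set.Ioi (0 : ℝ)),
        truncExpWeight (y + ∑ i, a i * x i) * Real.exp (-∑ i, x i) =
      1 - ∫ r in Set.Ioi (0 : ℝ), r * Real.exp (-r) *
        Kiter N a (Set.indicator (Set.Ioi (0 : ℝ)) (1 : ℝ → ℝ)) (y - r) := by
  rw [orthant_integral_eq_Kiter N a truncExpWeight measurable_truncExpWeight 1
    abs_truncExpWeight_le, Kiter_truncExpWeight_apply]

/-- **Glue.** The first half of S0423 follows from the lower bound `q* ≤ ∫ w S`, where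
`S v = F (4/3 - v)` and `F = Kiter N a 1_{(0,∞)}`. -/
theorem part1_of_survival_bound
    (h : ∀ (N : ℕ) (a : Fin N → ℝ), 1 ≤ N → ∑ i, a i = 0 →
      4 / 9 * Real.exp (-(1 / 3)) ≤ ∫ r in Set.Ioi (0 : ℝ), r * Real.exp (-r) *
        Kiter N a (Set.indicator (Set.Ioi (0 : ℝ)) (1 : ℝ → ℝ)) (4 / 3 - r)) :
    ∀ (N : ℕ) (a : Fin N → ℝ), 1 ≤ N → ∑ i, a i = 0 →
      Real.exp (4 / 3) / (4 / 3) *
          ∫ x in Set.pi Set.univ (fun _ : Fin N => Set.Ioi (0 : ℝ)),
            Crest.AlgGeometry.truncExpWeight (4 / 3 + ∑ i, a i * x i) * Real.exp (-∑ i, x i)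
        ≤ 3 / 4 * Real.exp (4 / 3) - Real.exp 1 / 3 := by
  intro N a hN ha
  rw [template_integral_eq]
  have hq := h N a hN ha
  have hexp : Real.exp (4 / 3) * Real.exp (-(1 / 3)) = Real.exp 1 := by
    rw [← Real.exp_add]
    norm_num
  have hpos := Real.exp_pos (4 / 3)
  have h2 := mul_le_mul_of_nonneg_left hq hpos.le
  rw [show Real.exp (4 / 3) * (4 / 9 * Real.exp (-(1 / 3))) =
    4 / 9 * (Real.exp (4 / 3) * Real.exp (-(1 / 3))) by ring, hexp] at h2
  rw [div_mul_eq_mul_div, div_le_iff₀ (by norm_num)]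
  nlinarith

/-- The degenerate case `a = 0` of the survival bound. -/
theorem survival_bound_of_eq_zero (N : ℕ) (a : Fin N → ℝ) (ha : ∀ i, a i = 0) :
    4 / 9 * Real.exp (-(1 / 3)) ≤ ∫ r in Set.Ioi (0 : ℝ), r * Real.exp (-r) *
        Kiter N a (Set.indicator (Set.Ioi (0 : ℝ)) (1 : ℝ → ℝ)) (4 / 3 - r) := by
  rw [Kiter_of_eq_zero N a ha]
  have h1 := truncExpWeight_eq (4 / 3)
  unfold wconv at h1
  have h2 : truncExpWeight (4 / 3) = (1 + 4 / 3) * Real.exp (-(4 / 3)) := by
    unfold truncExpWeight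
    rw [if_neg (by norm_num)]
  have h3 : (∫ r in Set.Ioi (0 : ℝ), r * Real.exp (-r) *
      Set.indicator (Set.Ioi (0 : ℝ)) (1 : ℝ → ℝ) (4 / 3 - r)) =
      1 - (1 + 4 / 3) * Real.exp (-(4 / 3)) := by
    rw [← h2, h1]
    ring
  rw [h3]
  -- numeric: u = exp (-1/3) ≤ 18/25, exp (-4/3) = u^4
  have hu : Real.exp (-(1 / 3)) ≤ 18 / 25 := by
    have h := Real.quadratic_le_exp_of_nonneg (x := 1 / 3) (by norm_num)
    have hpos := Real.exp_pos (-(1 / 3) : ℝ)
    have hmul : Real.exp (1 / 3) * Real.exp (-(1 / 3)) = 1 := by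
      rw [← Real.exp_add]
      simp
    nlinarith
  have hu0 := Real.exp_pos (-(1 / 3) : ℝ)
  have h4 : Real.exp (-(4 / 3)) = Real.exp (-(1 / 3)) ^ 4 := by
    rw [← Real.exp_nat_mul]
    norm_num
  rw [h4]
  have h5 : Real.exp (-(1 / 3)) ^ 4 ≤ (18 / 25) ^ 4 := by gcongr
  nlinarith

end Crest.Agent.Helper19
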